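import Vale.Agent.H24.GSH.Asm

/-! P329: elementary abelian 2-groups by elementary abelian 3-groups -/

namespace Vale.Agent.H29.GSH.R

open Vale.Agent.H24.GSH Vale.Agent.H24.GSH.RowG

/-- count mod 2 of the occurrences of `a`, weighted by `f (value of the prefix)` -/
def N {α G : Type} [Group G] [DecidableEq α] (φ : α → G) (a : α) (f : G → ZMod 2) :
    G → List α → ZMod 2
  | _, [] => 0
  | g, b :: w => (if b = a then f g else 0) + N φ a f (g * φ b) w

variable {α G : Type} [Group G] [DecidableEq α] {φ : α → G}

theorem N_add (a : α) (f f' : G → ZMod 2) (w : List α) : ∀ g,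
    N φ a (f + f') g w = N φ a f g w + N φ a f' g w := by
  induction w with
  | nil => intro g; simp [N]
  | cons b w ih =>
    intro g
    simp only [N, ih]
    by_cases h : b = a
    · simp only [h, if_true, Pi.add_apply]; ring
    · simp only [h, if_false]; ring

theorem N_zero (a : α) (w : List α) : ∀ g, N φ a 0 g w = 0 := by
  induction w with
  | nil => intro g; simp [N]
  | cons b w ih =>
    intro g
    simp only [N, ih]
    simp

theorem N_snoc (a : α) (f : G → ZMod 2) (w : List α) (b : α) : ∀ g,
    N φ a f g (w ++ [b]) = N φ a f g w + (if b = a then f (g * (w.map φ).prod) else 0) := by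
  induction w with
  | nil => intro g; simp [N]
  | cons c w ih =>
    intro g
    rw [List.cons_append]
    simp only [N, ih, List.map_cons, List.prod_cons]
    rw [add_assoc, mul_assoc]

theorem z2 (x : ZMod 2) : x = 0 ∨ x = 1 := by revert x; decide

/-- the good weights -/
def Good (φ : α → G) (f : G → ZMod 2) : Prop := ∀ a, H 1 {w : List α | N φ a f 1 w = 1}

theorem good_zero : Good φ 0 := by
  intro a
  have : {w : List α | N φ a 0 1 w = 1} = ∅ := by
    ext w; simp [N_zero]
  rw [this]; exact H_empty

theorem good_add {f f' : G → ZMod 2} (h : Good φ f) (h' : Good φ f') : Good φ (f + f') := by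
  intro a
  have : {w : List α | N φ a (f + f') 1 w = 1} =
      ({w : List α | N φ a f 1 w = 1} ∩ {w : List α | N φ a f' 1 w = 1}ᶜ) ∪
      ({w : List α | N φ a f 1 w = 1}ᶜ ∩ {w : List α | N φ a f' 1 w = 1}) := by
    ext w
    simp only [Set.mem_ofPred_eq, Set.mem_union, Set.mem_inter_iff, Set.mem_compl_iff, N_add]
    generalize N φ a f 1 w = x
    generalize N φ a f' 1 w = y
    revert x y
    decide
  rw [this]
  exact ((h a).inter (h' a).compl).union ((h a).compl.inter (h' a))

/-- indicator of a coset of the kernel of a character of order three -/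
def I (χ : G →* Multiplicative (ZMod 3)) (s : Multiplicative (ZMod 3)) (g : G) : ZMod 2 :=
  if χ g = s then 1 else 0

theorem mv_mod (u : Fin 6) (c : Fin 3) : (mv u c).val % 3 = (u.val % 3 + c.val) % 3 := by
  revert u c; decide

def r (x : Multiplicative (ZMod 3)) : Fin 3 := (Multiplicative.toAdd x : ZMod 3)

theorem r_mul : ∀ x y, (r (x * y)).val = ((r x).val + (r y).val) % 3 := by decide

theorem r_inj : ∀ x y, (r x).val = (r y).val → x = y := by decide

theorem r_one : (r 1).val = 0 := by decide

theorem bit0 : ∀ t : Fin 3, bitOf (0, false, false, false) t = false := by decide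

theorem good_I [Fintype α] (χ : G →* Multiplicative (ZMod 3)) (s : Multiplicative (ZMod 3)) :
    Good φ (I χ s) := by
  intro a
  let c : α → Fin 3 := fun b => r (χ (φ b))
  let st : List α → S := fun w =>
    w.foldl (fun s b => bstep s (c b) (decide (b = a))) (0, false, false, false)
  have hst : ∀ w b, st (w ++ [b]) = bstep (st w) (c b) (decide (b = a)) := by
    intro w b
    simp only [st, List.foldl_append, List.foldl_cons, List.foldl_nil]
  have hres : ∀ w, (st w).1.val % 3 = (r (χ (w.map φ).prod)).val := by
    intro w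
    induction w using List.reverseRecOn with
    | nil =>
      rw [List.map_nil, List.prod_nil, map_one, r_one]
      rfl
    | append_singleton w b ih =>
      rw [hst]
      show (mv (st w).1 (c b)).val % 3 = _
      rw [mv_mod, ih, List.map_append, List.prod_append, List.map_singleton, List.prod_singleton,
        map_mul, r_mul]
  have hbit : ∀ w, (bitOf (st w) (r s) = true ↔ N φ a (I χ s) 1 w = 1) := by
    intro w
    induction w using List.reverseRecOn with
    | nil =>
      have : bitOf (st []) (r s) = false := bit0 _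
      rw [this]
      simp [N]
    | append_singleton w b ih =>
      rw [hst, bitOf_bstep, N_snoc, hres, one_mul]
      by_cases hb : b = a
      · by_cases hs : χ (w.map φ).prod = s
        · have h2 : I χ s (w.map φ).prod = 1 := by simp [I, hs]
          simp only [hb, if_true, h2, hs, decide_true, Bool.and_self]
          revert ih
          generalize N φ a (I χ s) 1 w = x
          generalize bitOf (st w) (r s) = y
          revert x y
          decide
        · have h2 : I χ s (w.map φ).prod = 0 := by simp [I, hs]
          have h3 : ¬ (r (χ (w.map φ).prod)).val = (r s).val := fun h => hs (r_inj _ _ h)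
          simp only [hb, if_true, h2, h3, decide_false, Bool.and_false, add_zero, Bool.xor_false]
          exact ih
      · simp only [hb, if_false, decide_false, Bool.false_and, add_zero, Bool.xor_false]
        exact ih
  have hfin := H_iUnion_prop (α := α) (k := 1) (ι := S)
    (fun σ => bitOf σ (r s) = true)
    (fun σ => {w | st w = σ})
    (fun σ _ => machine c a (0, false, false, false) σ)
  convert hfin using 1
  ext w
  simp only [Set.mem_ofPred_eq]
  rw [← hbit]
  simp

/-- span of the indicators -/
def C (G : Type) [Group G] : AddSubgroup (G → ZMod 2) :=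
  AddSubgroup.closure {f | ∃ χ s, f = I χ s}

theorem C_good [Fintype α] {f : G → ZMod 2} (hf : f ∈ C G) : Good φ f := by
  refine AddSubgroup.closure_induction (p := fun f _ => Good φ f) ?_ good_zero
    (fun _ _ _ _ h h' => good_add h h') ?_ hf
  · rintro _ ⟨χ, s, rfl⟩; exact good_I χ s
  · intro x _ hx
    have : -x = x := by
      funext g
      have : ∀ y : ZMod 2, -y = y := by decide
      exact this _
    rw [this]; exact hx

theorem I_mem (χ : G →* Multiplicative (ZMod 3)) (s : Multiplicative (ZMod 3)) : I χ s ∈ C G :=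
  AddSubgroup.subset_closure ⟨χ, s, rfl⟩

theorem one_mem : (1 : G → ZMod 2) ∈ C G := by
  have : (1 : G → ZMod 2) = I 1 1 := by funext g; simp [I]
  rw [this]; exact I_mem _ _

theorem I_aux : ∀ s s' x y : Multiplicative (ZMod 3),
    ((if x = s then (1 : ZMod 2) else 0) * if y = s' then 1 else 0) =
      ((((if x = s then 1 else 0) + if y = s' then 1 else 0) + if x * y = s * s' then 1 else 0) +
          if x * y⁻¹ = s * s'⁻¹ then 1 else 0) + 1 := by
  decide

theorem I_mul (χ χ' : G →* Multiplicative (ZMod 3)) (s s' : Multiplicative (ZMod 3)) :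
    I χ s * I χ' s' = I χ s + I χ' s' + I (χ * χ') (s * s') + I (χ * χ'⁻¹) (s * s'⁻¹) + 1 := by
  funext g
  exact I_aux s s' (χ g) (χ' g)

theorem mul_mem {f f' : G → ZMod 2} (hf : f ∈ C G) (hf' : f' ∈ C G) : f * f' ∈ C G := by
  refine AddSubgroup.closure_induction (p := fun f _ => f * f' ∈ C G) ?_ ?_ ?_ ?_ hf
  · rintro _ ⟨χ, s, rfl⟩
    refine AddSubgroup.closure_induction (p := fun f' _ => I χ s * f' ∈ C G) ?_ ?_ ?_ ?_ hf'
    · rintro _ ⟨χ', s', rfl⟩
      rw [I_mul]
      exact add_mem (add_mem (add_mem (add_mem (I_mem _ _) (I_mem _ _)) (I_mem _ _)) (I_mem _ _))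
        one_mem
    · rw [mul_zero]; exact zero_mem _
    · intro x y _ _ hx hy; rw [mul_add]; exact add_mem hx hy
    · intro x _ hx; rw [mul_neg]; exact neg_mem hx
  · rw [zero_mul]; exact zero_mem _
  · intro x y _ _ hx hy; rw [add_mul]; exact add_mem hx hy
  · intro x _ hx; rw [neg_mul]; exact neg_mem hx

/-- point indicators -/
theorem pt_mem {ι : Type} [Fintype ι] (π : ι → G →* Multiplicative (ZMod 3))
    (v : ι → Multiplicative (ZMod 3)) :
    (fun g => if (fun i => π i g) = v then (1 : ZMod 2) else 0) ∈ C G := by
  classical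
  have h : (fun g => if (fun i => π i g) = v then (1 : ZMod 2) else 0) = ∏ i, I (π i) (v i) := by
    funext g
    rw [Finset.prod_apply]
    by_cases h : (fun i => π i g) = v
    · rw [if_pos h]
      symm
      apply Finset.prod_eq_one
      intro i _
      have h5 : π i g = v i := congrFun h i
      simp [I, h5]
    · rw [if_neg h]
      symm
      have : ∃ i, π i g ≠ v i := by
        by_contra hcon
        push Not at hcon
        exact h (funext hcon)
      obtain ⟨i, hi⟩ := this
      apply Finset.prod_eq_zero (Finset.mem_univ i)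
      simp [I, hi]
  rw [h]
  exact Finset.prod_induction _ (· ∈ C G) (fun _ _ => mul_mem) one_mem (fun i _ => I_mem _ _)

theorem group_result_three {ι : Type} [Fintype ι] {G : Type} [Group G]
    (π : ι → G →* Multiplicative (ZMod 3))
    (hker : ∀ g, (∀ i, π i g = 1) → g * g = 1) {α : Type} [Fintype α] [DecidableEq α] (φ : α → G)
    (T : Set G) : H 1 {w : List α | (w.map φ).prod ∈ T} := by
  classical
  let M := Multiplicative (ZMod 3)
  let P : G →* (ι → M) := MonoidHom.pi π
  have hP : ∀ g, P g = 1 → g * g = 1 := fun g h => hker g (fun i => congrFun h i)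
  have hcomm : ∀ x y : P.ker, x * y = y * x := by
    intro x y
    have hx : (x : G) * x = 1 := hP x x.2
    have hy : (y : G) * y = 1 := hP y y.2
    have hxy : ((x : G) * y) * (x * y) = 1 := hP _ (x * y).2
    apply Subtype.ext
    show (x : G) * y = y * x
    have h1 : (x : G)⁻¹ = x := inv_eq_of_mul_eq_one_left hx
    have h2 : (y : G)⁻¹ = y := inv_eq_of_mul_eq_one_left hy
    have h3 : ((x : G) * y)⁻¹ = x * y := inv_eq_of_mul_eq_one_left hxy
    rw [← h3, mul_inv_rev, h1, h2]
  let _ : CommGroup P.ker := { (inferInstance : Group P.ker) with mul_comm := hcomm }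
  have hkk : ∀ x : P.ker, x * x = 1 := fun x => Subtype.ext (hP x x.2)
  let s : (ι → M) → G := fun v => if h : ∃ g, P g = v then h.choose else 1
  have hs : ∀ g, P (s (P g)) = P g := by
    intro g
    have h : ∃ g', P g' = P g := ⟨g, rfl⟩
    simp only [s, dif_pos h]
    exact h.choose_spec
  let k0 : α → (ι → M) → G := fun b v => s v * φ b * (s (v * P (φ b)))⁻¹
  let k : α × (ι → M) → P.ker := fun p => if h : k0 p.1 p.2 ∈ P.ker then ⟨_, h⟩ else 1
  have hk : ∀ b g, ((k (b, P g) : P.ker) : G) = k0 b (P g) := by
    intro b g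
    have h : k0 b (P g) ∈ P.ker := by
      rw [MonoidHom.mem_ker]
      show P (s (P g) * φ b * (s (P g * P (φ b)))⁻¹) = 1
      rw [map_mul, map_mul, map_inv, hs, ← map_mul, hs, mul_inv_cancel]
    simp only [k, dif_pos h]
  let F : (ι → M) → G → ZMod 2 := fun v g => if (fun i => π i g) = v then (1 : ZMod 2) else 0
  have hF : ∀ v, Good φ (F v) := fun v => C_good (pt_mem π v)
  let n : α × (ι → M) → List α → ZMod 2 := fun p w => N φ p.1 (F p.2) 1 w
  have hn0 : ∀ p, n p [] = 0 := fun p => rfl
  have hns : ∀ p w b, n p (w ++ [b]) = n p w + (if p = (b, P (w.map φ).prod) then 1 else 0) := by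
    rintro ⟨a, v⟩ w b
    show N φ a (F v) 1 (w ++ [b]) = N φ a (F v) 1 w + _
    rw [N_snoc, one_mul]
    congr 1
    by_cases h1 : b = a
    · subst h1
      by_cases h2 : v = P (w.map φ).prod
      · subst h2
        rw [if_pos rfl, if_pos rfl]
        exact if_pos rfl
      · rw [if_pos rfl, if_neg (fun h => h2 (Prod.mk.inj h).2)]
        exact if_neg (fun h => h2 h.symm)
    · rw [if_neg h1, if_neg (fun h => h1 (Prod.mk.inj h).1.symm)]
  let E : List α → P.ker := fun w => ∏ p : α × (ι → M), if n p w = 1 then k p else 1
  have hE : ∀ w b, E (w ++ [b]) = E w * k (b, P (w.map φ).prod) := by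
    intro w b
    have h1 : k (b, P (w.map φ).prod) =
        ∏ p : α × (ι → M), if p = (b, P (w.map φ).prod) then k p else 1 := by
      rw [Finset.prod_ite_eq' Finset.univ _ k]
      simp
    rw [h1]
    simp only [E]
    rw [← Finset.prod_mul_distrib]
    apply Finset.prod_congr rfl
    intro p _
    rw [hns]
    by_cases hp : p = (b, P (w.map φ).prod)
    · rw [if_pos hp, if_pos hp]
      rcases z2 (n p w) with h | h
      · rw [h]; simp
      · rw [h, if_neg (by decide), if_pos rfl, hkk]
    · rw [if_neg hp, if_neg hp, add_zero, mul_one]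
  have key : ∀ w, s 1 * (w.map φ).prod = (E w : G) * s (P (w.map φ).prod) := by
    intro w
    induction w using List.reverseRecOn with
    | nil =>
      have : E [] = 1 := by
        simp only [E]
        apply Finset.prod_eq_one
        intro p _
        rw [hn0, if_neg (by decide)]
      rw [this]
      simp
    | append_singleton w b ih =>
      rw [List.map_append, List.prod_append, List.map_singleton, List.prod_singleton, hE,
        ← mul_assoc, ih, Subgroup.coe_mul, hk, map_mul]
      simp only [k0]
      group
  have hdet : ∀ w w', (∀ p, n p w = n p w') → P (w.map φ).prod = P (w'.map φ).prod →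
      (w.map φ).prod = (w'.map φ).prod := by
    intro w w' h h'
    have hEE : E w = E w' := by
      simp only [E]
      apply Finset.prod_congr rfl
      intro p _
      rw [h p]
    have := key w
    rw [h', hEE, ← key w'] at this
    exact mul_left_cancel this
  have hnH : ∀ p x, H 1 {w | n p w = x} := by
    intro p x
    rcases z2 x with rfl | rfl
    · have h1 := (hF p.2 p.1).compl
      convert h1 using 1
      ext w
      simp only [Set.mem_compl_iff, Set.mem_ofPred_eq]
      show n p w = 0 ↔ ¬ n p w = 1
      rcases z2 (n p w) with h | h <;> rw [h] <;> decide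
    · exact hF p.2 p.1
  have hPH : ∀ (i : ι) (x : M), H 1 {w : List α | π i (w.map φ).prod = x} := by
    intro i x
    have h1 := group_result (G := Multiplicative (ZMod 3)) (MonoidHom.id _)
      (fun g hg => by rw [MonoidHom.id_apply] at hg; rw [hg, one_mul]) (fun a => π i (φ a)) {x}
    convert h1 using 1
    ext w
    simp only [Set.mem_ofPred_eq, Set.mem_singleton_iff, map_list_prod, List.map_map]
    rfl
  have hfin := H_iUnion_prop (α := α) (k := 1) (ι := (α × (ι → M) → ZMod 2) × (ι → M))
    (fun σ => ∃ w0, (∀ p, n p w0 = σ.1 p) ∧ P (w0.map φ).prod = σ.2 ∧ (w0.map φ).prod ∈ T)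
    (fun σ => (⋂ p, {w | n p w = σ.1 p}) ∩ ⋂ i, {w | π i (w.map φ).prod = σ.2 i})
    (fun σ _ => (H_iInter _ (fun p => hnH p _)).inter (H_iInter _ (fun i => hPH i _)))
  convert hfin using 1
  ext w
  simp only [Set.mem_ofPred_eq, Set.mem_iInter, Set.mem_inter_iff]
  constructor
  · intro hw
    exact ⟨(fun p => n p w, P (w.map φ).prod), ⟨w, fun p => rfl, rfl, hw⟩, fun p => rfl, fun i => rfl⟩
  · rintro ⟨σ, ⟨w0, h0, hP0, hT⟩, hw, hw'⟩
    rw [hdet w w0 (fun p => (hw p).trans (h0 p).symm) (by rw [hP0]; funext i; exact hw' i)]
    exact hT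

end Vale.Agent.H29.GSH.R
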